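import Vale.Agent.P299.H570.Base.Pair

set_option linter.all false

open Filter Topology

namespace Vale.Agent.P299.H570.Base

open Vale.Agent.P282.L2 (Pol pev Prim Sheets)
open Vale.Agent.P282.L2.Prim

section one

variable {n N : ℕ} {K : Type} [Field K] [Algebra ℂ K] [Algebra (Pol n) K]
  [IsScalarTower ℂ (Pol n) K] [FaithfulSMul (Pol n) K]

/-- The algebra of regular elements. -/
def regAlg (E : Prim n K) : Subalgebra ℂ K where
  carrier := {a | E.IsReg a}
  mul_mem' := IsReg.mul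
  add_mem' := IsReg.add
  algebraMap_mem' := isReg_const

theorem mem_regAlg {E : Prim n K} {a : K} : a ∈ regAlg E ↔ E.IsReg a := Iff.rfl

/-- Generators of the algebra of regular elements. -/
theorem regAlg_eq_adjoin (E : Prim n K) : regAlg E = Algebra.adjoin ℂ
    (Set.range (fun i => algebraMap (Pol n) K (MvPolynomial.X i)) ∪
      {E.y, (algebraMap (Pol n) K E.h)⁻¹}) := by
  apply le_antisymm
  · intro a ha
    obtain ⟨f, k, hf⟩ := ha
    set B := Algebra.adjoin ℂ (Set.range (fun i => algebraMap (Pol n) K (MvPolynomial.X i)) ∪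
      {E.y, (algebraMap (Pol n) K E.h)⁻¹}) with hB
    have hy : E.y ∈ B := Algebra.subset_adjoin (by simp)
    have hh : (algebraMap (Pol n) K E.h)⁻¹ ∈ B := Algebra.subset_adjoin (by simp)
    have hp : ∀ g : Pol n, algebraMap (Pol n) K g ∈ B := by
      intro g
      induction g using MvPolynomial.induction_on with
      | C a =>
        have h1 : algebraMap (Pol n) K (MvPolynomial.C a) = algebraMap ℂ K a := by
          rw [IsScalarTower.algebraMap_apply ℂ (Pol n) K]
          rfl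
        rw [h1]
        exact B.algebraMap_mem a
      | add p q hp hq => rw [map_add]; exact B.add_mem hp hq
      | mul_X p i hp =>
        rw [map_mul]
        exact B.mul_mem hp (Algebra.subset_adjoin (Or.inl ⟨i, rfl⟩))
    have h1 : Polynomial.aeval E.y f ∈ B := by
      rw [Polynomial.aeval_eq_sum_range]
      refine B.sum_mem fun i _ => ?_
      rw [Algebra.smul_def]
      exact B.mul_mem (hp _) (B.pow_mem hy i)
    have h2 : a = ((algebraMap (Pol n) K E.h)⁻¹) ^ k * Polynomial.aeval E.y f := by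
      rw [← hf, ← mul_assoc, ← mul_pow, inv_mul_cancel₀ (ev_aux_h E), one_pow, one_mul]
    rw [h2]
    exact B.mul_mem (B.pow_mem hh k) h1
  · rw [Algebra.adjoin_le_iff]
    rintro a (⟨i, rfl⟩ | ha)
    · exact isReg_alg _
    · rcases ha with rfl | ha
      · exact isReg_y
      · rw [Set.mem_singleton_iff.1 ha]
        exact isReg_h_inv

theorem regAlg_fg (E : Prim n K) : (regAlg E).FG := by
  classical
  rw [regAlg_eq_adjoin]
  refine ⟨Finset.univ.image (fun i => algebraMap (Pol n) K (MvPolynomial.X i)) ∪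
    {E.y, (algebraMap (Pol n) K E.h)⁻¹}, ?_⟩
  congr 1
  simp

/-- Every element of the field is a quotient of regular elements. -/
theorem regAlg_frac (E : Prim n K) (f : K) : ∃ p q : regAlg E, q ≠ 0 ∧ f * q = p := by
  obtain ⟨g, c, hc, h⟩ := E.gen f
  refine ⟨⟨_, isReg_aeval g⟩, ⟨_, isReg_alg c⟩, ?_, ?_⟩
  · intro h0
    have h1 : algebraMap (Pol n) K c = 0 := congrArg Subtype.val h0
    rw [FaithfulSMul.algebraMap_eq_zero_iff] at h1
    exact hc h1
  · show f * algebraMap (Pol n) K c = Polynomial.aeval E.y g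
    rw [← h, mul_comm]

variable {E : Prim n K} {S : Sheets n N} {q q' : (Fin n → ℂ) × ℂ}

/-- Evaluation at a point. -/
noncomputable def evHom (hS : E.IsSheets S) (hq : q ∈ S.M) : regAlg E →ₐ[ℂ] ℂ where
  toFun a := E.ev a q
  map_one' := ev_one hS hq
  map_mul' a b := ev_mul hS hq a.2 b.2
  map_zero' := ev_zero hS hq
  map_add' a b := ev_add hS hq a.2 b.2
  commutes' c := ev_const hS hq c

theorem evHom_apply (hS : E.IsSheets S) (hq : q ∈ S.M) (a : regAlg E) :
    evHom hS hq a = E.ev a q := rfl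

/-- Points are determined by the values of regular elements. -/
theorem pt_ext (hS : E.IsSheets S) (hq : q ∈ S.M) (hq' : q' ∈ S.M)
    (h : ∀ a, E.IsReg a → E.ev a q = E.ev a q') : q = q' := by
  apply Prod.ext
  · funext i
    have := h _ (isReg_alg (MvPolynomial.X i))
    rwa [ev_alg hS hq, ev_alg hS hq', MvPolynomial.eval_X, MvPolynomial.eval_X] at this
  · have := h _ isReg_y
    rwa [ev_y hS hq, ev_y hS hq'] at this

/-- Every complex point of the algebra of regular elements is a point of the cover. -/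
theorem exists_pt (hS : E.IsSheets S) (x : regAlg E →ₐ[ℂ] ℂ) :
    ∃ q ∈ S.M, ∀ a : regAlg E, x a = E.ev a q := by
  set z : Fin n → ℂ := fun i => x ⟨_, isReg_alg (MvPolynomial.X i)⟩ with hz
  have hp : ∀ g : Pol n, x ⟨_, isReg_alg g⟩ = MvPolynomial.eval z g := by
    intro g
    induction g using MvPolynomial.induction_on with
    | C a =>
      have h1 : (⟨_, isReg_alg (MvPolynomial.C a)⟩ : regAlg E) = algebraMap ℂ (regAlg E) a := by
        apply Subtype.ext
        show algebraMap (Pol n) K (MvPolynomial.C a) = algebraMap ℂ K a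
        rw [IsScalarTower.algebraMap_apply ℂ (Pol n) K]
        rfl
      rw [h1, AlgHom.commutes, MvPolynomial.eval_C]
      rfl
    | add p q hp hq =>
      have h1 : (⟨_, isReg_alg (p + q)⟩ : regAlg E) = ⟨_, isReg_alg p⟩ + ⟨_, isReg_alg q⟩ :=
        Subtype.ext (map_add _ _ _)
      rw [h1, map_add, map_add, hp, hq]
    | mul_X p i hp =>
      have h1 : (⟨_, isReg_alg (p * MvPolynomial.X i)⟩ : regAlg E) =
          ⟨_, isReg_alg p⟩ * ⟨_, isReg_alg (MvPolynomial.X i)⟩ := Subtype.ext (map_mul _ _ _)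
      rw [h1, map_mul, map_mul, hp, MvPolynomial.eval_X]
  set w : ℂ := x ⟨_, isReg_y⟩ with hw
  have hf : ∀ f : Polynomial (Pol n), x ⟨_, isReg_aeval f⟩ = pev f (z, w) := by
    intro f
    have h1 : (⟨_, isReg_aeval f⟩ : regAlg E) = ∑ i ∈ Finset.range (f.natDegree + 1),
        (⟨_, isReg_alg (f.coeff i)⟩ : regAlg E) * (⟨_, isReg_y⟩ : regAlg E) ^ i := by
      apply Subtype.ext
      rw [AddSubmonoidClass.coe_finset_sum]
      show Polynomial.aeval E.y f = _
      rw [Polynomial.aeval_eq_sum_range]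
      refine Finset.sum_congr rfl fun i _ => ?_
      rw [Algebra.smul_def]
      rfl
    rw [h1, map_sum, pev, Polynomial.eval_map, Polynomial.eval₂_eq_sum_range]
    refine Finset.sum_congr rfl fun i _ => ?_
    rw [map_mul, map_pow, hp]
  have hh : MvPolynomial.eval z E.h ≠ 0 := by
    intro h0
    have h1 : (⟨_, isReg_alg E.h⟩ : regAlg E) * ⟨_, isReg_h_inv⟩ = 1 := by
      apply Subtype.ext
      exact mul_inv_cancel₀ (ev_aux_h E)
    have h2 := congrArg x h1
    rw [map_mul, hp, h0, zero_mul, map_one] at h2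
    exact zero_ne_one h2
  have hq : ((z, w) : (Fin n → ℂ) × ℂ) ∈ S.M := by
    refine ⟨(hS.1 _).2 hh, (hS.2 _ _).2 ?_⟩
    have h1 : (⟨_, isReg_aeval (minpoly (Pol n) E.y)⟩ : regAlg E) = 0 :=
      Subtype.ext (minpoly.aeval _ _)
    have h2 := hf (minpoly (Pol n) E.y)
    rw [h1, map_zero] at h2
    exact h2.symm
  refine ⟨_, hq, fun a => ?_⟩
  obtain ⟨f, k, hfk⟩ := a.2
  rw [ev_eq hS hq hfk, eq_div_iff (pow_ne_zero _ hh), ← hf]
  have h1 : (⟨_, isReg_aeval f⟩ : regAlg E) = a * (⟨_, isReg_alg E.h⟩ : regAlg E) ^ k := by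
    apply Subtype.ext
    show Polynomial.aeval E.y f = (a : K) * algebraMap (Pol n) K E.h ^ k
    rw [← hfk, mul_comm]
  rw [h1, map_mul, map_pow, hp]

/-- A nonzero element has no zeros after localisation at a nonzero polynomial. -/
theorem exists_poly_ne (E : Prim n K) {a : K} (ha : E.IsReg a) (h0 : a ≠ 0) :
    ∃ g : Pol n, g ≠ 0 ∧ ∀ {N : ℕ} {S : Sheets n N}, E.IsSheets S → ∀ q ∈ S.M,
      MvPolynomial.eval q.1 g ≠ 0 → E.ev a q ≠ 0 := by
  obtain ⟨a', c, ha', hc, h⟩ := exists_mul_eq_alg E h0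
  refine ⟨c, hc, fun {N S} hS q hq hg h1 => hg ?_⟩
  have h2 := ev_mul hS hq ha (isReg_of_integral ha')
  rw [h, ev_alg hS hq, h1, zero_mul] at h2
  exact h2

end one

section two

variable {n N k N' : ℕ} {K : Type} [Field K] [Algebra ℂ K] [Algebra (Pol n) K]
  [IsScalarTower ℂ (Pol n) K] [FaithfulSMul (Pol n) K]
  {K₀ : Type} [Field K₀] [Algebra ℂ K₀] [Algebra (Pol k) K₀]
  [IsScalarTower ℂ (Pol k) K₀] [FaithfulSMul (Pol k) K₀] [Algebra K₀ K]
  {E : Prim n K} {E' : Prim k K₀} {ι : Fin k ↪ Fin n}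
  {S : Sheets n N} {T : Sheets k N'} {q : (Fin n → ℂ) × ℂ} {q' : (Fin k → ℂ) × ℂ}

/-- A point of the total space lies over a point of the base exactly if the values of the regular
elements of the base agree. -/
theorem Pair.over_iff (P : Pair E E' ι) (hS : E.IsSheets S) (hT : E'.IsSheets T) (hq : q ∈ S.M)
    (hq' : q' ∈ T.M) : Φ E E' ι q = q' ↔
      ∀ a : K₀, E'.IsReg a → E.ev (algebraMap K₀ K a) q = E'.ev a q' := by
  constructor
  · rintro rfl a ha
    exact P.ev_eq' hS hT hq ha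
  · intro h
    refine pt_ext hT (P.maps hS hT hq) hq' fun a ha => ?_
    rw [← P.ev_eq' hS hT hq ha, h a ha]

/-- The fibres are unions of whole fibres: localisation at a polynomial in the base coordinates. -/
theorem Pair.mem_mul_iff (P : Pair E E' ι) {g : Pol k} (hg : g ≠ 0) {S' : Sheets n N}
    {T' : Sheets k N'} (hS : E.IsSheets S) (hT : E'.IsSheets T)
    (hS' : (Base.mul E (MvPolynomial.rename ι g) (rename_ne_zero hg)).IsSheets S')
    (hT' : (Base.mul E' g hg).IsSheets T') : q ∈ S'.M ↔ q ∈ S.M ∧ Φ E E' ι q ∈ T'.M := by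
  rw [mem_mul hS hS', MvPolynomial.eval_rename]
  constructor
  · rintro ⟨h1, h2⟩
    exact ⟨h1, (mem_mul hT hT').2 ⟨P.maps hS hT h1, h2⟩⟩
  · rintro ⟨h1, h2⟩
    exact ⟨h1, ((mem_mul hT hT').1 h2).2⟩

/-- The map of total spaces is unchanged by localisation. -/
theorem Pair.Φ_mul (P : Pair E E' ι) {g : Pol k} (hg : g ≠ 0) {S' : Sheets n N}
    (hS : E.IsSheets S)
    (hS' : (Base.mul E (MvPolynomial.rename ι g) (rename_ne_zero hg)).IsSheets S') (hq : q ∈ S'.M) :
    Φ (Base.mul E (MvPolynomial.rename ι g) (rename_ne_zero hg)) (Base.mul E' g hg) ι q = Φ E E' ι q := by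
  unfold Φ
  rw [mul_y, ev_mul' hS hS' P.regy hq]

/-- The algebra of regular elements of the base as a subalgebra of `K`. -/
noncomputable def baseAlg (E' : Prim k K₀) (φ : K₀ →ₐ[ℂ] K) : Subalgebra ℂ K :=
  (regAlg E').map φ

theorem mem_baseAlg {E' : Prim k K₀} {φ : K₀ →ₐ[ℂ] K} {b : K} :
    b ∈ baseAlg E' φ ↔ ∃ a, E'.IsReg a ∧ φ a = b := by
  rw [baseAlg, Subalgebra.mem_map]
  rfl

theorem baseAlg_fg (E' : Prim k K₀) (φ : K₀ →ₐ[ℂ] K) : (baseAlg E' φ).FG :=
  (regAlg_fg E').map φ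

theorem Pair.baseAlg_le (P : Pair E E' ι) (φ : K₀ →ₐ[ℂ] K) (hφ : ∀ a, φ a = algebraMap K₀ K a) :
    baseAlg E' φ ≤ regAlg E := by
  intro b hb
  obtain ⟨a, ha, rfl⟩ := mem_baseAlg.1 hb
  rw [hφ]
  exact P.reg ha

/-- Complex points of the base algebra. -/
theorem exists_pt_base (hT : E'.IsSheets T) (φ : K₀ →ₐ[ℂ] K) (x : baseAlg E' φ →ₐ[ℂ] ℂ) :
    ∃ q ∈ T.M, ∀ (a : K₀) (ha : E'.IsReg a), x ⟨φ a, mem_baseAlg.2 ⟨a, ha, rfl⟩⟩ = E'.ev a q := by
  let ψ : regAlg E' →ₐ[ℂ] baseAlg E' φ :=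
    (φ.comp (regAlg E').val).codRestrict (baseAlg E' φ) (fun a =>
      mem_baseAlg.2 ⟨a, a.2, rfl⟩)
  obtain ⟨q, hq, h⟩ := exists_pt hT (x.comp ψ)
  exact ⟨q, hq, fun a ha => h ⟨a, ha⟩⟩

/-- Evaluation of the base algebra at a point of the base. -/
theorem exists_hom_base (hT : E'.IsSheets T) (φ : K₀ →ₐ[ℂ] K) (hq' : q' ∈ T.M) :
    ∃ x : baseAlg E' φ →ₐ[ℂ] ℂ, ∀ (a : K₀) (ha : E'.IsReg a),
      x ⟨φ a, mem_baseAlg.2 ⟨a, ha, rfl⟩⟩ = E'.ev a q' := by
  have hinj : Function.Injective φ := φ.toRingHom.injective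
  let e : regAlg E' ≃ₐ[ℂ] baseAlg E' φ := (regAlg E').equivMapOfInjective φ hinj
  refine ⟨(evHom hT hq').comp e.symm.toAlgHom, fun a ha => ?_⟩
  have h1 : e ⟨a, ha⟩ = ⟨φ a, mem_baseAlg.2 ⟨a, ha, rfl⟩⟩ := rfl
  rw [← h1]
  show evHom hT hq' (e.symm (e ⟨a, ha⟩)) = _
  rw [AlgEquiv.symm_apply_apply]
  rfl

end two

end Vale.Agent.P299.H570.Base
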