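import Vale.Agent.P299.H570.Base.Lab
import Vale.Agent.P299.H340.Model.BaseAlg

set_option linter.all false

open Filter Topology

namespace Vale.Agent.P299.H570.Base

open Vale.Agent
open Vale.Agent.P282.L2 (Pol pev Prim IB)
open Vale.Agent.P299.H340 Vale.Agent.P299.H531

/-! ### Points over homomorphisms of the ring of integral elements -/

section point

variable {n : ℕ} {K : Type} [Field K] [Algebra ℂ K] [Algebra (Pol n) K]
  [IsScalarTower ℂ (Pol n) K] [FaithfulSMul (Pol n) K]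

/-- A homomorphism of the ring of integral elements which does not kill the denominator is the
evaluation at a point. -/
theorem exists_point_IB (A : Mod n K) (χ : IB n K →+* ℂ)
    (hχ : ∀ c : ℂ, χ (algebraMap (Pol n) (IB n K) (MvPolynomial.C c)) = c)
    (hh : χ (algebraMap (Pol n) (IB n K) A.E.h) ≠ 0) :
    ∃ q ∈ A.S.M, (∀ i, q.1 i = χ (algebraMap (Pol n) (IB n K) (MvPolynomial.X i))) ∧
      ∀ b : IB n K, χ b = A.val b q := by
  set z : Fin n → ℂ := fun i => χ (algebraMap (Pol n) (IB n K) (MvPolynomial.X i)) with hz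
  have h1 : ∀ f : Pol n, χ (algebraMap (Pol n) (IB n K) f) = MvPolynomial.eval z f := by
    intro f
    have : (χ.comp (algebraMap (Pol n) (IB n K))) = MvPolynomial.eval z := by
      refine MvPolynomial.ringHom_ext (fun c => ?_) (fun i => ?_)
      · rw [RingHom.comp_apply, hχ, MvPolynomial.eval_C]
      · rw [RingHom.comp_apply, MvPolynomial.eval_X]
    rw [← this]
    rfl
  set y : IB n K := ⟨A.E.y, A.E.integral⟩ with hy
  have h2 : ∀ f : Polynomial (Pol n), χ (Polynomial.aeval y f) = pev f (z, χ y) := by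
    intro f
    rw [pev, Polynomial.aeval_def, Polynomial.hom_eval₂, Polynomial.eval_map]
    congr 1
    ext f
    · simp [hχ]
    · exact h1 _
  have h3 : MvPolynomial.eval z A.E.h ≠ 0 := by
    rw [← h1]
    exact hh
  have hzV : z ∈ A.S₀.V := (A.sh.1 z).2 h3
  have hcoe : ∀ f : Polynomial (Pol n), ((Polynomial.aeval y f : IB n K) : K) =
      Polynomial.aeval A.E.y f := by
    intro f
    rw [← Subalgebra.coe_val, ← Polynomial.aeval_algHom_apply]
    rfl
  have hq0 : (z, χ y) ∈ A.S₀.M := by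
    refine ⟨hzV, (A.sh.2 z (χ y)).2 ?_⟩
    have h4 := h2 (minpoly (Pol n) A.E.y)
    have h5 : Polynomial.aeval y (minpoly (Pol n) A.E.y) = 0 := by
      apply Subtype.ext
      rw [hcoe, minpoly.aeval]
      rfl
    rw [h5, map_zero] at h4
    exact h4.symm
  have hq := A.link.qt_mem _ hq0
  have h6 : ((A.link.qt (z, χ y)).1 : Fin n → ℂ) = z := A.link.qt_fst _ hq0
  refine ⟨A.link.qt (z, χ y), hq, fun i => by rw [h6], fun b => ?_⟩
  obtain ⟨f, k, hf⟩ := (Mod.isReg_of_integral (A := A) b.2)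
  rw [Mod.val_eq hq hf, A.link.pt_qt _ hq0, h6, eq_div_iff (pow_ne_zero _ h3), ← h2, ← h1,
    ← map_pow, ← map_mul]
  congr 1
  apply Subtype.ext
  rw [hcoe, ← hf, MulMemClass.coe_mul, SubmonoidClass.coe_pow, mul_comm]
  rfl

end point

variable {n k : ℕ} {K : Type} [Field K] [Algebra ℂ K] [Algebra (Pol n) K]
  [IsScalarTower ℂ (Pol n) K] [FaithfulSMul (Pol n) K]
  {K₀ : Type} [Field K₀] [Algebra ℂ K₀] [Algebra (Pol k) K₀]
  [IsScalarTower ℂ (Pol k) K₀] [FaithfulSMul (Pol k) K₀] [Algebra K₀ K]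

variable {ι : Fin k ↪ Fin n}

/-- The condition that the denominators of the total space do not contain base directions. -/
def Good (ι : Fin k ↪ Fin n) (A : Mod n K) (B : Mod k K₀) : Prop :=
  ∃ (a : Fin n → ℂ) (m : ℕ), spec ι a A.E.h ∣ B.E.h ^ m

theorem Good.loc {A : Mod n K} {B : Mod k K₀} (h : Good ι A B) (g : Pol k) (hg : g ≠ 0) :
    Good ι (A.loc (MvPolynomial.rename ι g) (rename_ne_zero hg)) (B.loc g hg) := by
  obtain ⟨a, m, hd⟩ := h
  refine ⟨a, m + 1, ?_⟩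
  show spec ι a (A.E.h * MvPolynomial.rename ι g) ∣ (B.E.h * g) ^ (m + 1)
  rw [map_mul, spec_rename, mul_pow]
  exact mul_dvd_mul (hd.trans (pow_dvd_pow _ (Nat.le_succ m))) (dvd_pow_self g (by omega))

theorem Good.eval_ne {A : Mod n K} {B : Mod k K₀} {a : Fin n → ℂ} {m : ℕ}
    (hd : spec ι a A.E.h ∣ B.E.h ^ m) {z : Fin k → ℂ} (hz : z ∈ B.S.V) :
    MvPolynomial.eval (glue ι a z) A.E.h ≠ 0 := by
  intro h0
  obtain ⟨c, hd⟩ := hd
  have h1 := congrArg (MvPolynomial.eval z) hd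
  rw [map_mul, eval_spec, h0, zero_mul, map_pow] at h1
  have h2 : MvPolynomial.eval z B.E.h ≠ 0 := B.mem_V.1 hz
  exact pow_ne_zero m h2 h1

namespace Comp

variable {A : Mod n K} {B : Mod k K₀}

theorem var (P : Comp ι A B) : Var ι K₀ K := by
  intro i
  rw [P.comp, MvPolynomial.rename_X]

variable [IsScalarTower ℂ K₀ K]

/-- Elements of the base field which are regular on the total space are regular on the base. -/
theorem reg_base (P : Comp ι A B) (hG : Good ι A B) {b : K₀} (hb : A.IsReg (algebraMap K₀ K b)) :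
    B.IsReg b := by
  obtain ⟨a, m, hd⟩ := hG
  exact isReg_base P.var hd hb

theorem reg_iff (P : Comp ι A B) (hG : Good ι A B) {b : K₀} :
    A.IsReg (algebraMap K₀ K b) ↔ B.IsReg b :=
  ⟨P.reg_base hG, P.reg⟩

/-- **Surjectivity** of the map of the total spaces. -/
theorem surj (P : Comp ι A B) (hG : Good ι A B) :
    ∀ y ∈ B.S.M, ∃ q ∈ A.S.M, phi ι A B q = y := by
  haveI := isAlgebraic_of_prim B.E
  obtain ⟨a, m, hd⟩ := hG
  intro y hy
  let ψ : IB k K₀ →+* ℂ :=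
    { toFun := fun b => B.val b y
      map_one' := Mod.val_one hy
      map_mul' := fun b b' => Mod.val_mul hy (Mod.isReg_of_integral b.2)
        (Mod.isReg_of_integral b'.2)
      map_zero' := Mod.val_zero hy
      map_add' := fun b b' => Mod.val_add hy (Mod.isReg_of_integral b.2)
        (Mod.isReg_of_integral b'.2) }
  have hψ : ∀ f : Pol k, ψ (algebraMap (Pol k) (IB k K₀) f) = MvPolynomial.eval y.1 f :=
    fun f => Mod.val_alg hy f
  obtain ⟨χ, h1, h2, h3⟩ := exists_hom_over P.var ψ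
    (fun c => by rw [hψ, MvPolynomial.eval_C]) a
  have h4 : ∀ i, χ (algebraMap (Pol n) (IB n K) (MvPolynomial.X i)) = glue ι a y.1 i := by
    intro i
    by_cases hi : i ∈ Set.range ι
    · obtain ⟨l, rfl⟩ := hi
      rw [glue_apply]
      have h5 := h1 (algebraMap (Pol k) (IB k K₀) (MvPolynomial.X l))
      rw [hψ, MvPolynomial.eval_X] at h5
      rw [← h5]
      congr 1
      apply Subtype.ext
      exact (P.var l).symm
    · rw [h2 i hi, glue_of_notMem a y.1 hi]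
  have h5 : ∀ f : Pol n, χ (algebraMap (Pol n) (IB n K) f) =
      MvPolynomial.eval (glue ι a y.1) f := by
    intro f
    have : (χ.comp (algebraMap (Pol n) (IB n K))) = MvPolynomial.eval (glue ι a y.1) := by
      refine MvPolynomial.ringHom_ext (fun c => ?_) (fun i => ?_)
      · rw [RingHom.comp_apply, h3, MvPolynomial.eval_C]
      · rw [RingHom.comp_apply, MvPolynomial.eval_X, h4]
    rw [← this]
    rfl
  obtain ⟨q, hq, hq1, hq2⟩ := exists_point_IB A χ h3 (by rw [h5]; exact Good.eval_ne hd hy.1)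
  refine ⟨q, hq, ?_⟩
  have hm := P.maps hq
  have h6 : ∀ b : K₀, IsIntegral (Pol k) b → B.val b (phi ι A B q) = B.val b y := by
    intro b hb
    rw [← P.val hq (Mod.isReg_of_integral hb)]
    have h7 := hq2 ⟨algebraMap K₀ K b, P.var.isIntegral hb⟩
    rw [h1 ⟨b, hb⟩] at h7
    exact h7.symm
  refine B.link.pt_injOn hm hy (Prod.ext ?_ ?_)
  · rw [B.link.pt_fst _ hm, B.link.pt_fst _ hy]
    funext i
    have h8 := h6 _ (isIntegral_algebraMap (x := MvPolynomial.X i))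
    rw [Mod.val_alg hm, Mod.val_alg hy, MvPolynomial.eval_X, MvPolynomial.eval_X] at h8
    exact h8
  · have h8 := h6 _ B.E.integral
    rw [Mod.val_y hm, Mod.val_y hy] at h8
    exact h8

/-- The fibration. -/
theorem fibration (P : Comp ι A B) (hG : Good ι A B) : Fib A.S B.S ι (phi ι A B) :=
  P.fib (P.surj hG)

end Comp

/-- **Existence of compatible models** with finitely many regular elements. -/
theorem exists_base (A₀ : Mod n K) (B₀ : Mod k K₀) (ι : Fin k ↪ Fin n)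
    (hv : ∀ f : Pol k, algebraMap K₀ K (algebraMap (Pol k) K₀ f) =
      algebraMap (Pol n) K (MvPolynomial.rename ι f)) (F : Finset K) (F' : Finset K₀) (g₀ : Pol n)
    (hg₀ : g₀ ≠ 0) (g₀' : Pol k) (hg₀' : g₀' ≠ 0) :
    ∃ (g : Pol n) (hg : g ≠ 0) (g' : Pol k) (hg' : g' ≠ 0), g₀ ∣ g ∧ g₀' ∣ g' ∧
      (∀ a ∈ F, (A₀.loc g hg).IsReg a) ∧ (∀ a ∈ F', (B₀.loc g' hg').IsReg a) ∧
      Comp ι (A₀.loc g hg) (B₀.loc g' hg') ∧ Good ι (A₀.loc g hg) (B₀.loc g' hg') := by
  classical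
  obtain ⟨g₁, hg₁, h1⟩ := A₀.exists_loc_finset F
  obtain ⟨g₂, hg₂, h2⟩ := B₀.exists_loc_finset F'
  have hne : A₀.E.h * (g₀ * g₁) ≠ 0 := mul_ne_zero A₀.E.h0 (mul_ne_zero hg₀ hg₁)
  obtain ⟨a, ha⟩ := exists_spec_ne_zero ι hne
  set c := spec ι a (A₀.E.h * (g₀ * g₁)) with hc
  have hg' : g₀' * (g₂ * c) ≠ 0 := mul_ne_zero hg₀' (mul_ne_zero hg₂ ha)
  have hb : B₀.E.h * (g₀' * (g₂ * c)) ≠ 0 := mul_ne_zero B₀.E.h0 hg'
  have hg : g₀ * g₁ * MvPolynomial.rename ι (B₀.E.h * (g₀' * (g₂ * c))) ≠ 0 :=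
    mul_ne_zero (mul_ne_zero hg₀ hg₁) (rename_ne_zero hb)
  refine ⟨g₀ * g₁ * MvPolynomial.rename ι (B₀.E.h * (g₀' * (g₂ * c))), hg, g₀' * (g₂ * c), hg', ?_,
    ?_, ?_, ?_, ?_, ?_⟩
  · exact Dvd.dvd.mul_right (dvd_mul_right _ _) _
  · exact dvd_mul_right _ _
  · intro x hx
    exact isReg_mul_of_dvd (E := A₀.E) (hg := hg₁) (hg' := hg)
      (Dvd.dvd.mul_right (dvd_mul_left _ _) _) (h1 x hx)
  · intro x hx
    exact isReg_mul_of_dvd (E := B₀.E) (hg := hg₂) (hg' := hg')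
      (Dvd.dvd.mul_left (dvd_mul_right _ _) _) (h2 x hx)
  · refine ⟨hv, ?_⟩
    show MvPolynomial.rename ι (B₀.E.h * (g₀' * (g₂ * c))) ∣
      A₀.E.h * (g₀ * g₁ * MvPolynomial.rename ι (B₀.E.h * (g₀' * (g₂ * c))))
    exact Dvd.dvd.mul_left (dvd_mul_left _ _) _
  · refine ⟨a, 2, ?_⟩
    show spec ι a (A₀.E.h * (g₀ * g₁ * MvPolynomial.rename ι (B₀.E.h * (g₀' * (g₂ * c))))) ∣
      (B₀.E.h * (g₀' * (g₂ * c))) ^ 2
    rw [← mul_assoc, map_mul, spec_rename, ← hc, pow_two]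
    exact mul_dvd_mul (Dvd.dvd.mul_left (Dvd.dvd.mul_left (dvd_mul_left _ _) _) _) dvd_rfl

end Vale.Agent.P299.H570.Base
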