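import Vale.Agent.P299.H570.Base.Alg
import Vale.Agent.P299.H340.Model.Alg
import Vale.Agent.P299.H531.Fib

set_option linter.all false

open Filter Topology

namespace Vale.Agent.P299.H570.Base

open Vale.Agent
open Vale.Agent.P282.L2 (Pol pev Prim)
open Vale.Agent.P299.H340 Vale.Agent.P299.H531

variable {n k : ℕ} {K : Type} [Field K] [Algebra ℂ K] [Algebra (Pol n) K]
  [IsScalarTower ℂ (Pol n) K] [FaithfulSMul (Pol n) K]
  {K₀ : Type} [Field K₀] [Algebra ℂ K₀] [Algebra (Pol k) K₀]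
  [IsScalarTower ℂ (Pol k) K₀] [FaithfulSMul (Pol k) K₀] [Algebra K₀ K]

/-- Compatible models. -/
structure Comp (ι : Fin k ↪ Fin n) (A : Mod n K) (B : Mod k K₀) : Prop where
  comp : ∀ f : Pol k, algebraMap K₀ K (algebraMap (Pol k) K₀ f) =
    algebraMap (Pol n) K (MvPolynomial.rename ι f)
  dvd : MvPolynomial.rename ι B.E.h ∣ A.E.h

/-- Integral elements of the base field are integral. -/
theorem integral_map {ι : Fin k ↪ Fin n} (comp : ∀ f : Pol k,
    algebraMap K₀ K (algebraMap (Pol k) K₀ f) = algebraMap (Pol n) K (MvPolynomial.rename ι f))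
    {b : K₀} (hb : IsIntegral (Pol k) b) : IsIntegral (Pol n) (algebraMap K₀ K b) := by
  obtain ⟨p, hp1, hp2⟩ := hb
  refine ⟨p.map (MvPolynomial.rename ι : Pol k →ₐ[ℂ] Pol n).toRingHom, hp1.map _, ?_⟩
  have h1 : (algebraMap (Pol n) K).comp (MvPolynomial.rename ι : Pol k →ₐ[ℂ] Pol n).toRingHom =
      (algebraMap K₀ K).comp (algebraMap (Pol k) K₀) := by
    ext f
    · exact (comp _).symm
    · exact (comp _).symm
  rw [Polynomial.eval₂_map, h1, ← Polynomial.hom_eval₂, hp2, map_zero]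

variable {ι : Fin k ↪ Fin n} {A : Mod n K} {B : Mod k K₀}

namespace Comp

theorem pair (P : Comp ι A B) : Pair A.E B.E ι where
  comp := P.comp
  regy := Prim.isReg_of_integral (integral_map P.comp B.E.integral)
  dvd := P.dvd

/-- Elements of the base field which are regular on the base are regular. -/
theorem reg (P : Comp ι A B) {b : K₀} (hb : B.IsReg b) : A.IsReg (algebraMap K₀ K b) :=
  P.pair.reg hb

theorem loc (P : Comp ι A B) (g : Pol k) (hg : g ≠ 0) :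
    Comp ι (A.loc (MvPolynomial.rename ι g) (rename_ne_zero hg)) (B.loc g hg) where
  comp := P.comp
  dvd := by
    show MvPolynomial.rename ι (B.E.h * g) ∣ A.E.h * MvPolynomial.rename ι g
    rw [map_mul]
    exact mul_dvd_mul_right P.dvd _

theorem loc_left (P : Comp ι A B) (g : Pol n) (hg : g ≠ 0) : Comp ι (A.loc g hg) B where
  comp := P.comp
  dvd := P.dvd.mul_right _

end Comp

/-- The map of the total spaces. -/
noncomputable def phi (ι : Fin k ↪ Fin n) (A : Mod n K) (B : Mod k K₀) (q : (Fin n → ℂ) × ℕ) :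
    (Fin k → ℂ) × ℕ := B.link.qt (Φ A.E B.E ι (A.link.pt q))

namespace Comp

variable {q : (Fin n → ℂ) × ℕ}

theorem Φ_mem (P : Comp ι A B) (hq : q ∈ A.S.M) : Φ A.E B.E ι (A.link.pt q) ∈ B.S₀.M :=
  P.pair.maps A.sh B.sh (A.link.pt_mem q hq)

theorem maps (P : Comp ι A B) (hq : q ∈ A.S.M) : phi ι A B q ∈ B.S.M :=
  B.link.qt_mem _ (P.Φ_mem hq)

theorem fst (P : Comp ι A B) (hq : q ∈ A.S.M) : (phi ι A B q).1 = pr ι q.1 := by
  have h1 : (phi ι A B q).1 = (Φ A.E B.E ι (A.link.pt q)).1 := B.link.qt_fst _ (P.Φ_mem hq)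
  rw [h1]
  show (A.link.pt q).1 ∘ ι = _
  rw [A.link.pt_fst q hq]
  rfl

/-- Values of elements of the base field. -/
theorem val (P : Comp ι A B) (hq : q ∈ A.S.M) {b : K₀} (hb : B.IsReg b) :
    A.val (algebraMap K₀ K b) q = B.val b (phi ι A B q) := by
  have h1 := P.pair.ev_eq' A.sh B.sh (A.link.pt_mem q hq) hb
  show A.E.ev (algebraMap K₀ K b) (A.link.pt q) = B.E.ev b (B.link.pt (phi ι A B q))
  rw [h1, phi, B.link.pt_qt _ (P.Φ_mem hq)]

/-- `phi` is determined by the values of the elements of the base field. -/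
theorem phi_eq_iff (P : Comp ι A B) (hq : q ∈ A.S.M) {y : (Fin k → ℂ) × ℕ} (hy : y ∈ B.S.M) :
    phi ι A B q = y ↔ ∀ b, B.IsReg b → A.val (algebraMap K₀ K b) q = B.val b y := by
  constructor
  · rintro rfl b hb
    exact P.val hq hb
  · intro h
    refine Mod.eq_of_val (P.maps hq) hy fun b hb => ?_
    rw [← P.val hq hb, h b hb]

/-- Sections are mapped to sections. -/
theorem sect (P : Comp ι A B) {W : Set (Fin n → ℂ)} {s : (Fin n → ℂ) → ℕ}
    (hs : A.S.IsSection W s) {z : Fin n → ℂ} (hz : z ∈ W) :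
    ∃ (W' : Set (Fin k → ℂ)) (σ : (Fin k → ℂ) → ℕ), B.S.IsSection W' σ ∧ pr ι z ∈ W' ∧
      ∀ᶠ ζ in 𝓝 z, (phi ι A B (ζ, s ζ)).2 = σ (pr ι ζ) := by
  have hs' := A.link.sec_pt W s hs
  obtain ⟨W', σ, hσ, hzW, hev⟩ := P.pair.section_comp A.sh B.sh hs' hz
  refine ⟨W', _, B.link.sec_qt W' σ hσ, hzW, ?_⟩
  filter_upwards [hev, hs.isOpen.mem_nhds hz] with ζ h1 h2
  have hq : (ζ, s ζ) ∈ A.S.M := hs.mem_M h2
  have h3 : A.link.pt (ζ, s ζ) = (ζ, (A.link.pt (ζ, s ζ)).2) := A.link.pt_section hs h2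
  have h4 : Φ A.E B.E ι (A.link.pt (ζ, s ζ)) = (pr ι ζ, σ (pr ι ζ)) := by
    rw [h3]
    exact Prod.ext rfl h1
  show (B.link.qt (Φ A.E B.E ι (A.link.pt (ζ, s ζ)))).2 = _
  rw [h4]

/-- The fibration, given surjectivity. -/
theorem fib (P : Comp ι A B) (hsurj : ∀ y ∈ B.S.M, ∃ q ∈ A.S.M, phi ι A B q = y) :
    Fib A.S B.S ι (phi ι A B) where
  maps := fun q hq => P.maps hq
  fst := fun q hq => P.fst hq
  loc := fun W s hs z hz => P.sect hs hz
  surj := hsurj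

/-- Localisation does not change `phi`. -/
theorem phi_loc (P : Comp ι A B) {g : Pol k} {hg : g ≠ 0}
    (hq : q ∈ (A.loc (MvPolynomial.rename ι g) (rename_ne_zero hg)).S.M) :
    phi ι (A.loc (MvPolynomial.rename ι g) (rename_ne_zero hg)) (B.loc g hg) q = phi ι A B q := by
  have hq' := (Mod.mem_loc.1 hq).1
  have h2 := (P.loc g hg).maps hq
  have h3 := (Mod.mem_loc.1 h2).1
  symm
  rw [P.phi_eq_iff hq' h3]
  intro b hb
  have hb' : (B.loc g hg).IsReg b := hb.loc g hg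
  have h4 := (P.loc g hg).val hq hb'
  rwa [Mod.val_loc (P.reg hb) hq, Mod.val_loc hb h2] at h4

theorem phi_loc_left (P : Comp ι A B) {g : Pol n} {hg : g ≠ 0} (hq : q ∈ (A.loc g hg).S.M) :
    phi ι (A.loc g hg) B q = phi ι A B q := by
  have hq' := (Mod.mem_loc.1 hq).1
  symm
  rw [P.phi_eq_iff hq' ((P.loc_left g hg).maps hq)]
  intro b hb
  have h4 := (P.loc_left g hg).val hq hb
  rwa [Mod.val_loc (P.reg hb) hq] at h4

/-- The localised total space is a union of whole fibres. -/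
theorem mem_loc_iff (P : Comp ι A B) {g : Pol k} {hg : g ≠ 0} :
    q ∈ (A.loc (MvPolynomial.rename ι g) (rename_ne_zero hg)).S.M ↔
      q ∈ A.S.M ∧ phi ι A B q ∈ (B.loc g hg).S.M := by
  rw [Mod.mem_loc, Mod.mem_loc, MvPolynomial.eval_rename]
  constructor
  · rintro ⟨h1, h2⟩
    refine ⟨h1, P.maps h1, ?_⟩
    rw [P.fst h1]
    exact h2
  · rintro ⟨h1, h2, h3⟩
    refine ⟨h1, ?_⟩
    rw [P.fst h1] at h3
    exact h3

/-- Surjectivity is preserved by localisation at a polynomial in the base coordinates. -/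
theorem surj_loc (P : Comp ι A B) {g : Pol k} {hg : g ≠ 0}
    (hsurj : ∀ y ∈ B.S.M, ∃ q ∈ A.S.M, phi ι A B q = y) :
    ∀ y ∈ (B.loc g hg).S.M, ∃ q ∈ (A.loc (MvPolynomial.rename ι g) (rename_ne_zero hg)).S.M,
      phi ι (A.loc (MvPolynomial.rename ι g) (rename_ne_zero hg)) (B.loc g hg) q = y := by
  intro y hy
  obtain ⟨q, hq, h⟩ := hsurj y (Mod.mem_loc.1 hy).1
  have h1 : q ∈ (A.loc (MvPolynomial.rename ι g) (rename_ne_zero hg)).S.M :=
    P.mem_loc_iff.2 ⟨hq, by rw [h]; exact hy⟩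
  exact ⟨q, h1, by rw [P.phi_loc h1, h]⟩

end Comp

/-- A nonzero element has no zeros after localisation at a nonzero polynomial. -/
theorem exists_loc_ne (A : Mod n K) {a : K} (ha : A.IsReg a) (h0 : a ≠ 0) :
    ∃ (g : Pol n) (hg : g ≠ 0), ∀ q ∈ (A.loc g hg).S.M, A.val a q ≠ 0 := by
  obtain ⟨g, hg, h⟩ := exists_poly_ne A.E ha h0
  refine ⟨g, hg, fun q hq => ?_⟩
  obtain ⟨h1, h2⟩ := Mod.mem_loc.1 hq
  refine h A.sh _ (A.link.pt_mem q h1) ?_
  rwa [A.link.pt_fst q h1]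

/-- Complex points of the algebra of regular elements. -/
theorem exists_point' (A : Mod n K) (x : regAlg A.E →ₐ[ℂ] ℂ) :
    ∃ q ∈ A.S.M, ∀ a : regAlg A.E, x a = A.val a q := by
  obtain ⟨q, hq, h⟩ := exists_pt A.sh x
  refine ⟨A.link.qt q, A.link.qt_mem q hq, fun a => ?_⟩
  rw [h a]
  show A.E.ev a q = A.E.ev a (A.link.pt (A.link.qt q))
  rw [A.link.pt_qt q hq]

/-- Evaluation at a point of the labelled cover. -/
noncomputable def valHom (A : Mod n K) {q : (Fin n → ℂ) × ℕ} (hq : q ∈ A.S.M) :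
    regAlg A.E →ₐ[ℂ] ℂ := evHom A.sh (A.link.pt_mem q hq)

theorem valHom_apply (A : Mod n K) {q : (Fin n → ℂ) × ℕ} (hq : q ∈ A.S.M) (a : regAlg A.E) :
    valHom A hq a = A.val a q := rfl

/-- Complex points of the base algebra. -/
theorem exists_point_base (B : Mod k K₀) (φ : K₀ →ₐ[ℂ] K) (x : baseAlg B.E φ →ₐ[ℂ] ℂ) :
    ∃ y ∈ B.S.M, ∀ (b : K₀) (hb : B.IsReg b), x ⟨φ b, mem_baseAlg.2 ⟨b, hb, rfl⟩⟩ = B.val b y := by
  obtain ⟨y, hy, h⟩ := exists_pt_base B.sh φ x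
  refine ⟨B.link.qt y, B.link.qt_mem y hy, fun b hb => ?_⟩
  refine (h b hb).trans ?_
  show B.E.ev b y = B.E.ev b (B.link.pt (B.link.qt y))
  rw [B.link.pt_qt y hy]

theorem exists_hom_base' (B : Mod k K₀) (φ : K₀ →ₐ[ℂ] K) {y : (Fin k → ℂ) × ℕ} (hy : y ∈ B.S.M) :
    ∃ x : baseAlg B.E φ →ₐ[ℂ] ℂ, ∀ (b : K₀) (hb : B.IsReg b),
      x ⟨φ b, mem_baseAlg.2 ⟨b, hb, rfl⟩⟩ = B.val b y :=
  exists_hom_base B.sh φ (B.link.pt_mem y hy)

end Vale.Agent.P299.H570.Base
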