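import Vale.Agent.P299.H570.GrowthA2
import Vale.Agent.P299.H340.Model.Alg

set_option linter.all false

open MeasureTheory Filter Topology
open scoped ENNReal NNReal ComplexConjugate

namespace Vale.Agent.P299.H570

open Vale.Agent
open Vale.Agent.P282.L2 (Pol Prim pev IB IsPartials)
open Vale.Agent.P300.L2 Vale.Agent.P300.L2.Sheets Vale.Agent.P299.Pencil
open Vale.Agent.P299.H340

variable {n : ℕ} {K : Type} [Field K] [Algebra ℂ K] [Algebra (Pol n) K]
  [IsScalarTower ℂ (Pol n) K] [FaithfulSMul (Pol n) K]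

/-- Regular functions have polynomial growth, together with their derivatives. -/
theorem hp_val {M : Mod n K} {d : Fin n → Derivation ℂ K K} (hd : IsPartials d) {x : K}
    (hx : M.IsReg x) : HP M.S M.p (M.val x) where
  holo := Mod.holo_val hx
  pb := by
    obtain ⟨c, k, -, h⟩ := Mod.growth (A := M) hx
    exact ⟨c, k, h⟩
  dpb := fun j => by
    obtain ⟨c, k, -, h⟩ := Mod.growth (A := M) (Mod.IsReg.d hd hx j)
    refine ⟨c, k, fun q hq => ?_⟩
    rw [Mod.D_val hd hx hq]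
    exact h q hq

variable [Algebra (FractionRing (Pol n)) K] [IsScalarTower (Pol n) (FractionRing (Pol n)) K]
  [FiniteDimensional (FractionRing (Pol n)) K]

/-- The trace data of a model. -/
theorem exists_trData (M : Mod n K) : ∃ (A : ℝ) (a b c : ℕ) (x : Fin M.N → K)
    (f : Fin M.N → (Fin n → ℂ) × ℕ → ℂ), (∀ i, M.IsReg (x i)) ∧
    (∀ i, ∀ q ∈ M.S.M, f i q = M.val (M.E.y ^ (i : ℕ)) q) ∧
    TrData M.S M.E.h M.p A a b c (fun i => M.val (x i)) f := by
  classical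
  obtain ⟨x, hx, hrep⟩ := M.exists_dual_fsum
  choose cc kk hcc hgr using fun i => Mod.growth (A := M) (hx i)
  obtain ⟨B, d, hB, hB1, -⟩ := mv_growth M.E.h
  set a : ℕ := 2 * ∑ i, kk i with ha
  set A : ℝ := (1 + ∑ i, cc i) ^ 2 + 4 * B ^ 2 * (n + 2) with hA
  have hs0 : 0 ≤ ∑ i, cc i := Finset.sum_nonneg fun i _ => hcc i
  have hA1 : 1 ≤ A := by
    have h1 : 1 ≤ (1 + ∑ i, cc i) ^ 2 := one_le_pow₀ (by linarith)
    have h2 : (0 : ℝ) ≤ 4 * B ^ 2 * (n + 2) := by positivity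
    linarith
  refine ⟨A, a, 1, 2 * d + 2, x, fun i q => (M.link.pt q).2 ^ (i : ℕ), hx, ?_, ?_⟩
  · intro i q hq
    rw [Mod.val_pow hq Mod.isReg_y, Mod.val_y hq]
  · refine ⟨fun z => M.mem_V, hA1, fun i => Mod.holo_val (hx i), ?_, ?_, fun z _ => M.p_nonneg z, ?_, ?_⟩
    · intro i q hq
      have hp := M.p_nonneg q.1
      have h1 := hgr i q hq
      have h2 : cc i ≤ ∑ i, cc i := Finset.single_le_sum (fun i _ => hcc i) (Finset.mem_univ i)
      have h3 : kk i ≤ ∑ i, kk i := Finset.single_le_sum (fun i _ => Nat.zero_le _)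
        (Finset.mem_univ i)
      have h4 : (1 + M.p q.1) ^ kk i ≤ (1 + M.p q.1) ^ (∑ i, kk i) :=
        pow_le_pow_right₀ (by linarith) h3
      have h5 : ‖M.val (x i) q‖ ≤ (1 + ∑ i, cc i) * (1 + M.p q.1) ^ (∑ i, kk i) := by
        refine h1.trans (mul_le_mul (by linarith) h4 (by positivity) (by positivity))
      calc ‖M.val (x i) q‖ ^ 2 ≤ ((1 + ∑ i, cc i) * (1 + M.p q.1) ^ (∑ i, kk i)) ^ 2 :=
            pow_le_pow_left₀ (norm_nonneg _) h5 2
        _ = (1 + ∑ i, cc i) ^ 2 * (1 + M.p q.1) ^ a := by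
            rw [mul_pow, ← pow_mul, ha, mul_comm 2]
        _ ≤ A * (1 + M.p q.1) ^ a := by
            have h6 : (0 : ℝ) ≤ 4 * B ^ 2 * (n + 2) := by positivity
            gcongr
            linarith
    · intro F q hq
      refine (hrep F q hq).trans ?_
      refine Finset.sum_congr rfl fun i _ => ?_
      congr 1
      unfold fsum
      exact Finset.sum_congr rfl fun w _ => mul_comm _ _
    · obtain ⟨C, k0, hE⟩ := M.exh
      exact hE.smooth.continuousOn
    · intro z hz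
      have h0 : MvPolynomial.eval z M.E.h ≠ 0 := M.mem_V.1 hz
      have hz1 : 1 ≤ 1 + ‖z‖ := by have := norm_nonneg z; linarith
      have h1 := hB1 z
      have e1 : M.p z = ∑ i, ‖z i‖ ^ 2 + ‖(MvPolynomial.eval z M.E.h)⁻¹‖ ^ 2 := rfl
      have h2 : ∑ i, ‖z i‖ ^ 2 ≤ n * (1 + ‖z‖) ^ 2 := by
        calc ∑ i, ‖z i‖ ^ 2 ≤ ∑ _i : Fin n, (1 + ‖z‖) ^ 2 := by
              refine Finset.sum_le_sum fun i _ => pow_le_pow_left₀ (norm_nonneg _) ?_ 2
              exact (norm_le_pi_norm z i).trans (by linarith)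
          _ = n * (1 + ‖z‖) ^ 2 := by simp
      have h3 : ‖MvPolynomial.eval z M.E.h‖ ^ 2 * ‖(MvPolynomial.eval z M.E.h)⁻¹‖ ^ 2 = 1 := by
        rw [← mul_pow, ← norm_mul, mul_inv_cancel₀ h0, norm_one, one_pow]
      have h4 : ‖MvPolynomial.eval z M.E.h‖ ^ 2 ≤ (B * (1 + ‖z‖) ^ d) ^ 2 :=
        pow_le_pow_left₀ (norm_nonneg _) h1 2
      have h5 : 1 ≤ (1 + ‖z‖) ^ 2 := one_le_pow₀ hz1
      have h6 : 1 ≤ (B * (1 + ‖z‖) ^ d) ^ 2 := one_le_pow₀ (by
        have : 1 ≤ (1 + ‖z‖) ^ d := one_le_pow₀ hz1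
        nlinarith)
      rw [e1]
      calc ‖MvPolynomial.eval z M.E.h‖ ^ (2 * 1) *
            (1 + (∑ i, ‖z i‖ ^ 2 + ‖(MvPolynomial.eval z M.E.h)⁻¹‖ ^ 2))
          = ‖MvPolynomial.eval z M.E.h‖ ^ 2 * (1 + ∑ i, ‖z i‖ ^ 2) + 1 := by
            rw [← h3]
            ring
        _ ≤ (B * (1 + ‖z‖) ^ d) ^ 2 * ((1 + ‖z‖) ^ 2 + n * (1 + ‖z‖) ^ 2) +
            (B * (1 + ‖z‖) ^ d) ^ 2 * (1 + ‖z‖) ^ 2 := by
            refine add_le_add (mul_le_mul h4 (add_le_add h5 h2) ?_ (by positivity)) ?_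
            · have : 0 ≤ ∑ i, ‖z i‖ ^ 2 := Finset.sum_nonneg fun i _ => sq_nonneg _
              linarith
            · nlinarith
        _ = B ^ 2 * (n + 2) * (1 + ‖z‖) ^ (2 * d + 2) := by
            rw [mul_pow, ← pow_mul, pow_add, mul_comm d 2]
            ring
        _ ≤ A * (1 + ‖z‖) ^ (2 * d + 2) := by
            have h7 : B ^ 2 * (n + 2) ≤ A := by
              rw [hA]
              have h8 : (0 : ℝ) ≤ (1 + ∑ i, cc i) ^ 2 := by positivity
              have h9 : (0 : ℝ) ≤ B ^ 2 * (n + 2) := by positivity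
              linarith
            gcongr

/-- **The growth bound for models.** -/
theorem mod_growth (M : Mod n K) : ∃ C : ℕ, ∀ k : ℕ,
    Module.Finite ℂ (A2 M.S (fun q => ENNReal.ofReal (((1 + M.p q.1) ^ k)⁻¹))) ∧
    Module.finrank ℂ (A2 M.S (fun q => ENNReal.ofReal (((1 + M.p q.1) ^ k)⁻¹))) ≤
      C * (1 + k) ^ n := by
  obtain ⟨A, a, b, c, x, f, -, -, T⟩ := exists_trData M
  exact growth_A2 T

/-- Square integrable holomorphic functions with polynomial weights are values of regular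
elements. -/
theorem mod_val (M : Mod n K) {k : ℕ} {F : (Fin n → ℂ) × ℕ → ℂ}
    (hF : F ∈ A2 M.S (fun q => ENNReal.ofReal (((1 + M.p q.1) ^ k)⁻¹))) :
    ∃ x, M.IsReg x ∧ ∀ q ∈ M.S.M, F q = M.val x q := by
  obtain ⟨A, a, b, c, x, f, -, -, T⟩ := exists_trData M
  obtain ⟨h1, h2, h3⟩ := mem_A2.1 hF
  rw [T.lint h1 k] at h3
  exact M.exists_val_of_L2 h1 h3

/-- Square integrable holomorphic functions with polynomial weights have polynomial growth. -/
theorem mod_hp (M : Mod n K) {d : Fin n → Derivation ℂ K K} (hd : IsPartials d) {k : ℕ}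
    {F : (Fin n → ℂ) × ℕ → ℂ}
    (hF : F ∈ A2 M.S (fun q => ENNReal.ofReal (((1 + M.p q.1) ^ k)⁻¹))) : HP M.S M.p F := by
  obtain ⟨x, hx, h⟩ := mod_val M hF
  exact hpCongr (hp_val hd hx) h

end Vale.Agent.P299.H570
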