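import Vale.Agent.P282.Bd3.B1

set_option linter.all false

open Filter Topology

namespace Vale.Agent.P299.H570.Base

open Vale.Agent.P282.L2 (Pol pev Prim Sheets)
open Vale.Agent.P282.L2.Prim

variable {n N : ℕ} {K : Type} [Field K] [Algebra ℂ K] [Algebra (Pol n) K]
  [IsScalarTower ℂ (Pol n) K] [FaithfulSMul (Pol n) K]

/-- Localisation of a model at a nonzero polynomial. -/
noncomputable def mul (E : Prim n K) (g : Pol n) (hg : g ≠ 0) : Prim n K where
  y := E.y
  h := E.h * g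
  integral := E.integral
  h0 := mul_ne_zero E.h0 hg
  gen := E.gen
  denom := fun b hb => by
    obtain ⟨f, hf⟩ := E.denom b hb
    refine ⟨Polynomial.C g * f, ?_⟩
    rw [map_mul, map_mul, Polynomial.aeval_C, ← hf]
    ring
  unram := by
    obtain ⟨f, hf⟩ := E.unram
    refine ⟨Polynomial.C g * f, ?_⟩
    rw [map_mul, map_mul, Polynomial.aeval_C, ← hf]
    ring

variable {E : Prim n K} {g : Pol n} {hg : g ≠ 0} {a : K}

@[simp] theorem mul_y : (mul E g hg).y = E.y := rfl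

@[simp] theorem mul_h : (mul E g hg).h = E.h * g := rfl

/-- A representation for the localised model. -/
theorem rep_mul {f : Polynomial (Pol n)} {k : ℕ}
    (hf : algebraMap (Pol n) K E.h ^ k * a = Polynomial.aeval E.y f) :
    algebraMap (Pol n) K (mul E g hg).h ^ k * a =
      Polynomial.aeval (mul E g hg).y (Polynomial.C (g ^ k) * f) := by
  rw [mul_y, mul_h, map_mul, map_mul, Polynomial.aeval_C, ← hf, map_pow]
  ring

theorem isReg_mul (ha : E.IsReg a) : (mul E g hg).IsReg a := by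
  obtain ⟨f, k, hf⟩ := ha
  exact ⟨_, _, rep_mul hf⟩

/-- `a` becomes regular when its denominator is inverted. -/
theorem isReg_of_dvd {f : Polynomial (Pol n)} {c : Pol n} (hc : c ≠ 0)
    (h : algebraMap (Pol n) K c * a = Polynomial.aeval E.y f) (hd : c ∣ E.h) : E.IsReg a := by
  obtain ⟨d, hd⟩ := hd
  refine ⟨Polynomial.C d * f, 1, ?_⟩
  rw [pow_one, map_mul, Polynomial.aeval_C, ← h, hd, map_mul]
  ring

/-- Membership in the localised cover. -/
theorem mem_mul {S S' : Sheets n N} (hS : E.IsSheets S) (hS' : (mul E g hg).IsSheets S')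
    {q : (Fin n → ℂ) × ℂ} : q ∈ S'.M ↔ q ∈ S.M ∧ MvPolynomial.eval q.1 g ≠ 0 := by
  constructor
  · rintro ⟨h1, h2⟩
    have h3 := (hS'.1 _).1 h1
    rw [mul_h, map_mul] at h3
    exact ⟨⟨(hS.1 _).2 (left_ne_zero_of_mul h3), (hS.2 _ _).2 ((hS'.2 _ _).1 h2)⟩,
      right_ne_zero_of_mul h3⟩
  · rintro ⟨⟨h1, h2⟩, h3⟩
    refine ⟨(hS'.1 _).2 ?_, (hS'.2 _ _).2 ((hS.2 _ _).1 h2)⟩
    rw [mul_h, map_mul]
    exact mul_ne_zero ((hS.1 _).1 h1) h3

/-- Values are unchanged. -/
theorem ev_mul' {S S' : Sheets n N} (hS : E.IsSheets S) (hS' : (mul E g hg).IsSheets S')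
    (ha : E.IsReg a) {q : (Fin n → ℂ) × ℂ} (hq : q ∈ S'.M) :
    (mul E g hg).ev a q = E.ev a q := by
  obtain ⟨f, k, hf⟩ := ha
  obtain ⟨hq1, hq2⟩ := (mem_mul hS hS').1 hq
  rw [ev_eq hS' hq (rep_mul hf), ev_eq hS hq1 hf, mul_h, pev_mul, pev_C, map_pow, map_mul,
    mul_pow]
  have h1 : MvPolynomial.eval q.1 E.h ≠ 0 := (hS.1 _).1 hq1.1
  field_simp

/-- Finitely many elements become regular after localisation. -/
theorem exists_mul (E : Prim n K) (F : Finset K) : ∃ (g : Pol n) (hg : g ≠ 0),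
    ∀ a ∈ F, (mul E g hg).IsReg a := by
  classical
  choose f c hc hf using E.gen
  refine ⟨∏ a ∈ F, c a, Finset.prod_ne_zero_iff.2 fun a _ => hc a, fun a ha => ?_⟩
  refine isReg_of_dvd (f := f a) (hc a) (hf a) ?_
  exact Dvd.dvd.mul_left (Finset.dvd_prod_of_mem c ha) _

/-- Localisation is compatible with products. -/
theorem isReg_mul_of_dvd {E : Prim n K} {g g' : Pol n} {hg : g ≠ 0} {hg' : g' ≠ 0} (hd : g ∣ g')
    (ha : (mul E g hg).IsReg a) : (mul E g' hg').IsReg a := by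
  obtain ⟨d, rfl⟩ := hd
  obtain ⟨f, k, hf⟩ := ha
  refine ⟨Polynomial.C (d ^ k) * f, k, ?_⟩
  have hf' : algebraMap (Pol n) K (E.h * g) ^ k * a = Polynomial.aeval E.y f := hf
  show algebraMap (Pol n) K (E.h * (g * d)) ^ k * a = Polynomial.aeval E.y _
  rw [map_mul (Polynomial.aeval E.y), Polynomial.aeval_C, ← hf']
  simp only [map_mul, map_pow]
  ring

/-- The inverse of a nonzero element is regular after localisation, and the element has no zero
there. -/
theorem exists_mul_inv (E : Prim n K) (ha : a ≠ 0) : ∃ (g : Pol n) (hg : g ≠ 0),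
    (mul E g hg).IsReg a ∧ (mul E g hg).IsReg a⁻¹ := by
  classical
  obtain ⟨g, hg, h⟩ := exists_mul E {a, a⁻¹}
  exact ⟨g, hg, h a (by simp), h a⁻¹ (by simp)⟩

end Vale.Agent.P299.H570.Base
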