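import Vale.Agent.P299.H570.Base.Mul

set_option linter.all false

open Filter Topology

namespace Vale.Agent.P299.H570.Base

open Vale.Agent.P282.L2 (Pol pev Prim Sheets)
open Vale.Agent.P282.L2.Prim

variable {n N k N' : ℕ} {K : Type} [Field K] [Algebra ℂ K] [Algebra (Pol n) K]
  [IsScalarTower ℂ (Pol n) K] [FaithfulSMul (Pol n) K]
  {K₀ : Type} [Field K₀] [Algebra ℂ K₀] [Algebra (Pol k) K₀]
  [IsScalarTower ℂ (Pol k) K₀] [FaithfulSMul (Pol k) K₀] [Algebra K₀ K]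

/-- A pair of compatible models. -/
structure Pair (E : Prim n K) (E' : Prim k K₀) (ι : Fin k ↪ Fin n) : Prop where
  comp : ∀ f : Pol k, algebraMap K₀ K (algebraMap (Pol k) K₀ f) =
    algebraMap (Pol n) K (MvPolynomial.rename ι f)
  regy : E.IsReg (algebraMap K₀ K E'.y)
  dvd : MvPolynomial.rename ι E'.h ∣ E.h

variable {E : Prim n K} {E' : Prim k K₀} {ι : Fin k ↪ Fin n} {a : K₀}

theorem rename_ne_zero {g : Pol k} (hg : g ≠ 0) : MvPolynomial.rename ι g ≠ 0 := by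
  intro h
  exact hg (MvPolynomial.rename_injective ι ι.injective (by rw [h, map_zero]))

/-- The map of the total spaces. -/
noncomputable def Φ (E : Prim n K) (E' : Prim k K₀) (ι : Fin k ↪ Fin n) (q : (Fin n → ℂ) × ℂ) :
    (Fin k → ℂ) × ℂ := (q.1 ∘ ι, E.ev (algebraMap K₀ K E'.y) q)

namespace Pair

theorem aeval_eq (P : Pair E E' ι) (f : Polynomial (Pol k)) :
    algebraMap K₀ K (Polynomial.aeval E'.y f) = ∑ i ∈ Finset.range (f.natDegree + 1),
      algebraMap (Pol n) K (MvPolynomial.rename ι (f.coeff i)) *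
        (algebraMap K₀ K E'.y) ^ i := by
  rw [Polynomial.aeval_eq_sum_range, map_sum]
  refine Finset.sum_congr rfl fun i _ => ?_
  rw [Algebra.smul_def, map_mul, P.comp, map_pow]

theorem reg_aeval (P : Pair E E' ι) (f : Polynomial (Pol k)) :
    E.IsReg (algebraMap K₀ K (Polynomial.aeval E'.y f)) := by
  rw [P.aeval_eq]
  exact IsReg.sum _ fun i _ => (isReg_alg _).mul (P.regy.pow i)

theorem inv_reg (P : Pair E E' ι) :
    E.IsReg (algebraMap (Pol n) K (MvPolynomial.rename ι E'.h))⁻¹ := by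
  obtain ⟨d, hd⟩ := P.dvd
  refine ⟨Polynomial.C d, 1, ?_⟩
  have h1 : algebraMap (Pol n) K E.h ≠ 0 := ev_aux_h E
  rw [hd, map_mul] at h1
  rw [pow_one, Polynomial.aeval_C, hd, map_mul, mul_comm, ← mul_assoc,
    inv_mul_cancel₀ (left_ne_zero_of_mul h1), one_mul]

theorem reg (P : Pair E E' ι) (ha : E'.IsReg a) : E.IsReg (algebraMap K₀ K a) := by
  obtain ⟨f, m, hf⟩ := ha
  have h1 : algebraMap (Pol n) K (MvPolynomial.rename ι E'.h) ≠ 0 := by
    rw [Ne, FaithfulSMul.algebraMap_eq_zero_iff]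
    exact rename_ne_zero E'.h0
  have h2 : algebraMap K₀ K a = ((algebraMap (Pol n) K (MvPolynomial.rename ι E'.h))⁻¹) ^ m *
      algebraMap K₀ K (Polynomial.aeval E'.y f) := by
    rw [← hf, map_mul, map_pow, P.comp, ← mul_assoc, ← mul_pow, inv_mul_cancel₀ h1, one_pow,
      one_mul]
  rw [h2]
  exact (P.inv_reg.pow m).mul (P.reg_aeval f)

variable {S : Sheets n N} {T : Sheets k N'} {q : (Fin n → ℂ) × ℂ}

theorem ev_aeval (P : Pair E E' ι) (hS : E.IsSheets S) (hq : q ∈ S.M)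
    (f : Polynomial (Pol k)) :
    E.ev (algebraMap K₀ K (Polynomial.aeval E'.y f)) q = pev f (Φ E E' ι q) := by
  rw [P.aeval_eq, ev_sum hS hq _ fun i _ => (isReg_alg _).mul (P.regy.pow i)]
  rw [pev, Polynomial.eval_map, Polynomial.eval₂_eq_sum_range]
  refine Finset.sum_congr rfl fun i _ => ?_
  rw [ev_mul hS hq (isReg_alg _) (P.regy.pow i), ev_alg hS hq, ev_pow hS hq P.regy,
    MvPolynomial.eval_rename]
  rfl

theorem maps (P : Pair E E' ι) (hS : E.IsSheets S) (hT : E'.IsSheets T) (hq : q ∈ S.M) :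
    Φ E E' ι q ∈ T.M := by
  refine ⟨(hT.1 _).2 ?_, (hT.2 _ _).2 ?_⟩
  · intro h0
    obtain ⟨d, hd⟩ := P.dvd
    have h1 := (hS.1 _).1 hq.1
    rw [hd, map_mul, MvPolynomial.eval_rename] at h1
    exact left_ne_zero_of_mul h1 h0
  · have h1 := P.ev_aeval hS hq (minpoly (Pol k) E'.y)
    rw [minpoly.aeval, map_zero, ev_zero hS hq] at h1
    exact h1.symm

theorem ev_eq' (P : Pair E E' ι) (hS : E.IsSheets S) (hT : E'.IsSheets T) (hq : q ∈ S.M)
    (ha : E'.IsReg a) : E.ev (algebraMap K₀ K a) q = E'.ev a (Φ E E' ι q) := by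
  obtain ⟨f, m, hf⟩ := ha
  have hq' := P.maps hS hT hq
  rw [ev_eq hT hq' hf]
  have h1 : MvPolynomial.eval (Φ E E' ι q).1 E'.h ≠ 0 := (hT.1 _).1 hq'.1
  rw [eq_div_iff (pow_ne_zero _ h1)]
  have h2 : E.ev (algebraMap K₀ K (algebraMap (Pol k) K₀ E'.h ^ m * a)) q = pev f (Φ E E' ι q) := by
    rw [hf, P.ev_aeval hS hq]
  have ha : E'.IsReg a := ⟨f, m, hf⟩
  rw [map_mul, map_pow, P.comp, ev_mul hS hq ((isReg_alg _).pow m) (P.reg ha),
    ev_pow hS hq (isReg_alg _), ev_alg hS hq, MvPolynomial.eval_rename] at h2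
  rw [← h2, mul_comm]
  rfl

/-- Sections are mapped to sections. -/
theorem section_comp (P : Pair E E' ι) (hS : E.IsSheets S) (hT : E'.IsSheets T)
    {W : Set (Fin n → ℂ)} {s : (Fin n → ℂ) → ℂ} (hs : S.IsSection W s) {z : Fin n → ℂ}
    (hz : z ∈ W) : ∃ (W' : Set (Fin k → ℂ)) (σ : (Fin k → ℂ) → ℂ), T.IsSection W' σ ∧
      z ∘ ι ∈ W' ∧ ∀ᶠ ζ in 𝓝 z, (Φ E E' ι (ζ, s ζ)).2 = σ (ζ ∘ ι) := by
  have hmem : ∀ ζ ∈ W, (ζ, s ζ) ∈ S.M := fun ζ hζ => hs.mem_M hζ
  have hm := P.maps hS hT (hmem z hz)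
  obtain ⟨W₀, σ, hW₀, hzW, hWV, hσd, hσ⟩ := T.loc (z ∘ ι) hm.1
  have h1 := (hσ _ hzW).2
  have h2 : (Φ E E' ι (z, s z)).2 ∈ Finset.univ.image (fun i => σ i (z ∘ ι)) := by
    rw [← h1]
    exact hm.2
  obtain ⟨i, -, hi⟩ := Finset.mem_image.1 h2
  refine ⟨W₀, σ i, ⟨hW₀, hWV, hσd i, fun ζ hζ => ?_⟩, hzW, ?_⟩
  · rw [(hσ ζ hζ).2]
    exact Finset.mem_image_of_mem _ (Finset.mem_univ i)
  · have hcomp : Continuous fun ζ : Fin n → ℂ => ζ ∘ ι :=
      continuous_pi fun j => continuous_apply (ι j)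
    have hu : ContinuousAt (fun ζ => (Φ E E' ι (ζ, s ζ)).2) z :=
      ((holo_ev hS P.regy W s hs).continuousOn).continuousAt (hs.isOpen.mem_nhds hz)
    have hσc : ∀ j, ContinuousAt (fun ζ : Fin n → ℂ => σ j (ζ ∘ ι)) z := fun j => by
      have h3 : ContinuousAt (σ j) (z ∘ ι) := (hσd j).continuousOn.continuousAt (hW₀.mem_nhds hzW)
      exact ContinuousAt.comp (f := fun ζ : Fin n → ℂ => ζ ∘ ι) (x := z) h3 hcomp.continuousAt
    have hne : ∀ j, j ≠ i → ∀ᶠ ζ in 𝓝 z, (Φ E E' ι (ζ, s ζ)).2 ≠ σ j (ζ ∘ ι) := by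
      intro j hj
      have h3 : (Φ E E' ι (z, s z)).2 ≠ σ j (z ∘ ι) := by
        rw [← hi]
        intro h
        exact hj ((hσ _ hzW).1 h).symm
      have h4 := (hu.sub (hσc j)).eventually_ne (sub_ne_zero.2 h3)
      filter_upwards [h4] with ζ h5 using sub_ne_zero.1 h5
    have hall : ∀ᶠ ζ in 𝓝 z, ∀ j, j ≠ i → (Φ E E' ι (ζ, s ζ)).2 ≠ σ j (ζ ∘ ι) :=
      eventually_all.2 fun j => by
        by_cases hj : j = i
        · exact Eventually.of_forall fun ζ h => absurd hj h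
        · filter_upwards [hne j hj] with ζ h _ using h
    filter_upwards [hall, hs.isOpen.mem_nhds hz, hcomp.continuousAt.preimage_mem_nhds
      (hW₀.mem_nhds hzW)] with ζ h3 h4 h5
    have h6 := P.maps hS hT (hmem ζ h4)
    have h7 : (Φ E E' ι (ζ, s ζ)).2 ∈ Finset.univ.image (fun i => σ i (ζ ∘ ι)) := by
      rw [← (hσ _ h5).2]
      exact h6.2
    obtain ⟨j, -, hj⟩ := Finset.mem_image.1 h7
    by_cases hji : j = i
    · rw [← hj, hji]
    · exact absurd hj.symm (h3 j hji)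

/-- Localisation at a polynomial in the base coordinates. -/
theorem mul (P : Pair E E' ι) {g : Pol k} (hg : g ≠ 0) :
    Pair (mul E (MvPolynomial.rename ι g) (rename_ne_zero hg)) (mul E' g hg) ι where
  comp := P.comp
  regy := isReg_mul P.regy
  dvd := by
    rw [mul_h, mul_h, map_mul]
    exact mul_dvd_mul_right P.dvd _

/-- Localisation of the total space only. -/
theorem mul_left (P : Pair E E' ι) {g : Pol n} (hg : g ≠ 0) :
    Pair (Base.mul E g hg) E' ι where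
  comp := P.comp
  regy := isReg_mul P.regy
  dvd := by
    rw [mul_h]
    exact P.dvd.mul_right _

end Pair

/-- Compatible models with finitely many regular elements. -/
theorem exists_pair (E : Prim n K) (E' : Prim k K₀) (ι : Fin k ↪ Fin n)
    (comp : ∀ f : Pol k, algebraMap K₀ K (algebraMap (Pol k) K₀ f) =
      algebraMap (Pol n) K (MvPolynomial.rename ι f)) (F : Finset K) (F' : Finset K₀) :
    ∃ (g : Pol n) (hg : g ≠ 0) (g' : Pol k) (hg' : g' ≠ 0),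
      (∀ a ∈ F, (mul E g hg).IsReg a) ∧ (∀ a ∈ F', (mul E' g' hg').IsReg a) ∧
      Pair (mul E g hg) (mul E' g' hg') ι := by
  classical
  obtain ⟨g', hg', h1⟩ := exists_mul E' F'
  obtain ⟨g₁, hg₁, h2⟩ := exists_mul E (insert (algebraMap K₀ K E'.y) F)
  have h3 : MvPolynomial.rename ι (E'.h * g') ≠ 0 := rename_ne_zero (mul_ne_zero E'.h0 hg')
  refine ⟨g₁ * MvPolynomial.rename ι (E'.h * g'), mul_ne_zero hg₁ h3, g', hg', ?_, h1, ?_⟩
  · intro a ha
    exact isReg_mul_of_dvd (dvd_mul_right _ _) (h2 a (Finset.mem_insert_of_mem ha))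
  · refine ⟨comp, isReg_mul_of_dvd (dvd_mul_right _ _) (h2 _ (Finset.mem_insert_self _ _)), ?_⟩
    rw [mul_h, mul_h]
    exact Dvd.dvd.mul_left (Dvd.dvd.mul_left dvd_rfl _) _

end Vale.Agent.P299.H570.Base
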